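import Vale.Agent.Lib.P111.Defs

namespace Vale.Agent.Lib.P111

open scoped ENNReal

section aux

variable {F : ℕ → Type*} [∀ n, NormedAddCommGroup (F n)] [∀ n, NormedSpace ℝ (F n)]

private lemma two_pos' : 0 < (2 : ℝ≥0∞).toReal := by norm_num

private lemma norm_sq_sum_single (f : ∀ n, F n) (s : Finset ℕ) :
    ‖∑ i ∈ s, lp.single 2 i (f i)‖ ^ 2 = ∑ i ∈ s, ‖f i‖ ^ 2 := by
  have h := lp.norm_sum_single (p := 2) two_pos' f s
  simpa using h

private lemma sum_sq_le (y : lp F 2) (s : Finset ℕ) : ∑ i ∈ s, ‖y i‖ ^ 2 ≤ ‖y‖ ^ 2 := by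
  have h := lp.sum_rpow_le_norm_rpow (p := 2) two_pos' y s
  simpa using h

private lemma norm_sq_compl (y : lp F 2) (s : Finset ℕ) :
    ‖y - ∑ i ∈ s, lp.single 2 i (y i)‖ ^ 2 = ‖y‖ ^ 2 - ∑ i ∈ s, ‖y i‖ ^ 2 := by
  have h := lp.norm_compl_sum_single (p := 2) two_pos' y s
  simpa using h

/-- block diagonal operator on the first `N` coordinates -/
private noncomputable def blk (T : ∀ n, F n →L[ℝ] F n) (N : ℕ) : lp F 2 →L[ℝ] lp F 2 :=
  ∑ n ∈ Finset.range N,
    (lp.singleContinuousLinearMap ℝ F 2 n).comp ((T n).comp (lp.evalCLM ℝ F 2 n))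

private lemma blk_apply (T : ∀ n, F n →L[ℝ] F n) (N : ℕ) (y : lp F 2) :
    blk T N y = ∑ n ∈ Finset.range N, lp.single 2 n (T n (y n)) := by
  unfold blk
  rw [ContinuousLinearMap.sum_apply]
  rfl

private lemma blk_norm_le (T : ∀ n, F n →L[ℝ] F n) (N : ℕ) {lam : ℝ} (h0 : 0 ≤ lam)
    (hT : ∀ n, ‖T n‖ ≤ lam) : ‖blk T N‖ ≤ lam := by
  apply ContinuousLinearMap.opNorm_le_bound _ h0
  intro y
  rw [blk_apply]
  have h1 : ‖∑ n ∈ Finset.range N, lp.single 2 n (T n (y n))‖ ^ 2 ≤ (lam * ‖y‖) ^ 2 := by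
    rw [norm_sq_sum_single (fun n => T n (y n))]
    calc ∑ n ∈ Finset.range N, ‖T n (y n)‖ ^ 2
        ≤ ∑ n ∈ Finset.range N, lam ^ 2 * ‖y n‖ ^ 2 := by
          apply Finset.sum_le_sum
          intro n _
          have h2 : ‖T n (y n)‖ ≤ lam * ‖y n‖ :=
            ((T n).le_opNorm _).trans (mul_le_mul_of_nonneg_right (hT n) (norm_nonneg _))
          calc ‖T n (y n)‖ ^ 2 ≤ (lam * ‖y n‖) ^ 2 := pow_le_pow_left₀ (norm_nonneg _) h2 2
            _ = lam ^ 2 * ‖y n‖ ^ 2 := by ring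
      _ = lam ^ 2 * ∑ n ∈ Finset.range N, ‖y n‖ ^ 2 := by rw [Finset.mul_sum]
      _ ≤ lam ^ 2 * ‖y‖ ^ 2 := mul_le_mul_of_nonneg_left (sum_sq_le y _) (by positivity)
      _ = (lam * ‖y‖) ^ 2 := by ring
  exact (pow_le_pow_iff_left₀ (norm_nonneg _) (by positivity) (by norm_num)).1 h1

private lemma tail_uniform (M : Set (lp F 2)) (hM : IsCompact M) (e : ℝ) (he : 0 < e) :
    ∃ N : ℕ, ∀ y ∈ M, ‖y - ∑ n ∈ Finset.range N, lp.single 2 n (y n)‖ < e := by
  set U : ℕ → Set (lp F 2) :=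
    fun N => {y | ‖y - blk (fun n => ContinuousLinearMap.id ℝ (F n)) N y‖ < e} with hU
  have hopen : ∀ N, IsOpen (U N) := by
    intro N
    have hc : Continuous fun y : lp F 2 =>
        ‖y - blk (fun n => ContinuousLinearMap.id ℝ (F n)) N y‖ :=
      (continuous_id.sub (ContinuousLinearMap.continuous _)).norm
    exact isOpen_lt hc continuous_const
  have happ : ∀ N (y : lp F 2), blk (fun n => ContinuousLinearMap.id ℝ (F n)) N y
      = ∑ n ∈ Finset.range N, lp.single 2 n (y n) := by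
    intro N y
    rw [blk_apply]
    rfl
  have hcov : M ⊆ ⋃ N, U N := by
    intro y _
    have h1 := (lp.hasSum_single (p := 2) (by norm_num) y).tendsto_sum_nat
    have h2 := (Metric.tendsto_atTop.1 h1) e he
    obtain ⟨N, hN⟩ := h2
    refine Set.mem_iUnion.2 ⟨N, ?_⟩
    have h3 := hN N le_rfl
    rw [dist_comm, dist_eq_norm] at h3
    simp only [hU, Set.mem_setOf_eq, happ]
    exact h3
  have hmono : Monotone U := by
    intro N N' hNN y hy
    simp only [hU, Set.mem_setOf_eq, happ] at hy ⊢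
    refine lt_of_le_of_lt ?_ hy
    apply (pow_le_pow_iff_left₀ (norm_nonneg _) (norm_nonneg _) (two_ne_zero)).1
    rw [norm_sq_compl, norm_sq_compl]
    have : ∑ i ∈ Finset.range N, ‖y i‖ ^ 2 ≤ ∑ i ∈ Finset.range N', ‖y i‖ ^ 2 :=
      Finset.sum_le_sum_of_subset_of_nonneg (Finset.range_mono hNN) (fun _ _ _ => by positivity)
    linarith
  obtain ⟨N, hN⟩ := hM.elim_directed_cover U hopen hcov hmono.directed_le
  refine ⟨N, fun y hy => ?_⟩
  have := hN hy
  simpa only [hU, Set.mem_setOf_eq, happ] using this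

end aux

/-- the `l_2`-sum of spaces with the `lam`-bounded approximation property has it too -/
theorem bap_lp {F : ℕ → Type*} [∀ n, NormedAddCommGroup (F n)] [∀ n, NormedSpace ℝ (F n)]
    {lam : ℝ} (h : ∀ n, BAPLE lam (F n)) : BAPLE lam (lp F 2) := by
  intro M hM d hd
  obtain ⟨N, hN⟩ := tail_uniform M hM (d / 2) (by linarith)
  have hδ : 0 < d / (2 * ((N : ℝ) + 1)) := by positivity
  have hcomp : ∀ n, IsCompact ((fun y : lp F 2 => y n) '' M) := fun n =>
    hM.image (lp.evalCLM ℝ F 2 n).continuous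
  choose S hS1 hS2 hS3 using fun n => h n _ (hcomp n) _ hδ
  have h0 : 0 ≤ lam := (norm_nonneg _).trans (hS2 0)
  refine ⟨blk S N, ?_, blk_norm_le S N h0 hS2, ?_⟩
  · set W : ℕ → Submodule ℝ (lp F 2) :=
      fun n => (LinearMap.range (S n : F n →ₗ[ℝ] F n)).map (lp.lsingle 2 n) with hW
    haveI : ∀ n, FiniteDimensional ℝ (W n) := fun n => by
      haveI := hS1 n
      exact Module.Finite.map _ _
    haveI : FiniteDimensional ℝ ((Finset.range N).sup W : Submodule ℝ (lp F 2)) :=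
      Submodule.finiteDimensional_finset_sup _ _
    apply Submodule.finiteDimensional_of_le (S₂ := (Finset.range N).sup W)
    rintro _ ⟨y, rfl⟩
    change blk S N y ∈ _
    rw [blk_apply]
    apply Submodule.sum_mem
    intro n hn
    apply (Finset.le_sup hn : W n ≤ (Finset.range N).sup W)
    exact ⟨S n (y n), ⟨y n, rfl⟩, rfl⟩
  · intro y hy
    have h1 := hN y hy
    have h2 : ‖blk S N y - ∑ n ∈ Finset.range N, lp.single 2 n (y n)‖ ≤ d / 2 := by
      rw [blk_apply, ← Finset.sum_sub_distrib]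
      calc ‖∑ n ∈ Finset.range N, (lp.single 2 n (S n (y n)) - lp.single 2 n (y n))‖
          ≤ ∑ n ∈ Finset.range N, ‖lp.single 2 n (S n (y n)) - lp.single 2 n (y n)‖ :=
            norm_sum_le _ _
        _ ≤ ∑ n ∈ Finset.range N, d / (2 * ((N : ℝ) + 1)) := by
            apply Finset.sum_le_sum
            intro n _
            rw [← lp.single_sub, lp.norm_single (by norm_num)]
            exact (hS3 n (y n) ⟨y, hy, rfl⟩).le
        _ = (N : ℝ) * (d / (2 * ((N : ℝ) + 1))) := by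
            rw [Finset.sum_const, Finset.card_range, nsmul_eq_mul]
        _ ≤ d / 2 := by
            have hN1 : (0 : ℝ) < (N : ℝ) + 1 := by positivity
            rw [mul_div_assoc', div_le_div_iff₀ (by positivity) (by norm_num)]
            nlinarith
    calc ‖blk S N y - y‖
        = ‖(blk S N y - ∑ n ∈ Finset.range N, lp.single 2 n (y n))
            - (y - ∑ n ∈ Finset.range N, lp.single 2 n (y n))‖ := by congr 1; abel
      _ ≤ ‖blk S N y - ∑ n ∈ Finset.range N, lp.single 2 n (y n)‖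
            + ‖y - ∑ n ∈ Finset.range N, lp.single 2 n (y n)‖ := norm_sub_le _ _
      _ < d := by linarith

end Vale.Agent.Lib.P111
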