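import Vale.Agent.Lib.P111.Mink

namespace Vale.Agent.Lib.P111

/-- Cotype `q ≥ 2` passes to `l_2`-sums, in abstract form: the norm of `Y` is the `l_2`-norm of
the norms of the coordinates `T n y`, and all coordinate spaces have `C_q ≤ C`. -/
theorem cotype_of_coords {Y : Type*} [NormedAddCommGroup Y] [NormedSpace ℝ Y]
    {Z : ℕ → Type*} [∀ n, NormedAddCommGroup (Z n)] [∀ n, NormedSpace ℝ (Z n)]
    (T : ∀ n, Y →ₗ[ℝ] Z n) (hT : ∀ y : Y, HasSum (fun n => ‖T n y‖ ^ 2) (‖y‖ ^ 2))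
    {q C : ℝ} (hq : 2 ≤ q) (hC : 0 ≤ C) (h : ∀ n, CotypeLE q C (Z n)) : CotypeLE q C Y := by
  intro s y
  obtain ⟨hs, hle⟩ := mink hq (fun i n => ‖T n (y i)‖) (fun _ _ => norm_nonneg _)
    (fun i => ‖y i‖) (fun _ => norm_nonneg _) (fun i => hT (y i))
  have havg : ∀ g : (Fin s → Bool) → ℝ, (∀ e, 0 ≤ g e) → 0 ≤ avg s g := by
    intro g hg
    unfold avg
    exact div_nonneg (Finset.sum_nonneg fun e _ => hg e) (by positivity)
  have hR : HasSum (fun n => (l2n (rsum fun i => T n (y i))) ^ 2) ((l2n (rsum y)) ^ 2) := by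
    have h1 : ∀ n, (l2n (rsum fun i => T n (y i))) ^ 2
        = avg s (fun e => ‖T n (rsum y e)‖ ^ 2) := by
      intro n
      unfold l2n
      rw [Real.sq_sqrt (havg _ fun e => by positivity)]
      congr 1
      funext e
      simp [rsum, map_sum]
    have h2 : (l2n (rsum y)) ^ 2 = avg s (fun e => ‖rsum y e‖ ^ 2) :=
      Real.sq_sqrt (havg _ fun e => by positivity)
    simp only [h1, h2, avg]
    exact (hasSum_sum (fun e _ => hT (rsum y e))).div_const _
  have h3 : ∀ n, ((∑ i, ‖T n (y i)‖ ^ q) ^ (1 / q)) ^ 2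
      ≤ C ^ 2 * (l2n (rsum fun i => T n (y i))) ^ 2 := by
    intro n
    rw [← mul_pow]
    exact pow_le_pow_left₀ (Real.rpow_nonneg
      (Finset.sum_nonneg fun i _ => Real.rpow_nonneg (norm_nonneg _) _) _) (h n s _) 2
  have h4 := hs.tsum_le_tsum h3 (hR.summable.mul_left _)
  rw [(hR.mul_left (C ^ 2)).tsum_eq] at h4
  have h5 := hle.trans h4
  rw [← mul_pow] at h5
  exact (pow_le_pow_iff_left₀ (Real.rpow_nonneg
      (Finset.sum_nonneg fun i _ => Real.rpow_nonneg (norm_nonneg _) _) _)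
    (mul_nonneg hC (Real.sqrt_nonneg _)) two_ne_zero).1 h5

end Vale.Agent.Lib.P111
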