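import Mathlib

/-! Definitions for P111 (cotype-cotype conjecture). -/

namespace Vale.Agent.Lib.P111

/-- the sign `+1` or `-1` coded by a Boolean -/
def sg (b : Bool) : ℝ := if b then 1 else -1

/-- expectation over independent uniform signs, i.e. over the cube `{-1,1}^s` -/
noncomputable def avg (s : ℕ) (g : (Fin s → Bool) → ℝ) : ℝ := (∑ e, g e) / 2 ^ s

/-- `(E ‖f‖^2)^(1/2)`: the norm of `L_2({-1,1}^s; Y)` -/
noncomputable def l2n {Y : Type*} [NormedAddCommGroup Y] {s : ℕ} (f : (Fin s → Bool) → Y) : ℝ :=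
  Real.sqrt (avg s fun e => ‖f e‖ ^ 2)

/-- the Rademacher sum `e ↦ ∑ e_i y_i` -/
def rsum {Y : Type*} [NormedAddCommGroup Y] [NormedSpace ℝ Y] {s : ℕ} (y : Fin s → Y) :
    (Fin s → Bool) → Y := fun e => ∑ i, sg (e i) • y i

/-- `C_q(Y) ≤ C` -/
def CotypeLE (q C : ℝ) (Y : Type*) [NormedAddCommGroup Y] [NormedSpace ℝ Y] : Prop :=
  ∀ (s : ℕ) (y : Fin s → Y), (∑ i, ‖y i‖ ^ q) ^ (1 / q) ≤ C * l2n (rsum y)

/-- the Rademacher projection `Rad_s` -/
noncomputable def Rad {Y : Type*} [NormedAddCommGroup Y] [NormedSpace ℝ Y] {s : ℕ}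
    (f : (Fin s → Bool) → Y) : (Fin s → Bool) → Y :=
  rsum fun i => ((2 : ℝ) ^ s)⁻¹ • ∑ e, sg (e i) • f e

/-- `K(X) ≤ K` -/
def KConvexLE (K : ℝ) (X : Type*) [NormedAddCommGroup X] [NormedSpace ℝ X] : Prop :=
  ∀ (s : ℕ) (f : (Fin s → Bool) → X), l2n (Rad f) ≤ K * l2n f

/-- the bounded approximation property with constant `lam` -/
def BAPLE (lam : ℝ) (X : Type*) [NormedAddCommGroup X] [NormedSpace ℝ X] : Prop :=
  ∀ M : Set X, IsCompact M → ∀ d : ℝ, 0 < d → ∃ S : X →L[ℝ] X,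
    FiniteDimensional ℝ (LinearMap.range (S : X →ₗ[ℝ] X)) ∧ ‖S‖ ≤ lam ∧ ∀ x ∈ M, ‖S x - x‖ < d

/-- a dense increasing (directed) family of finite-dimensional subspaces, each the range of a
projection of norm at most `lam` -/
def PiLE (lam : ℝ) (X : Type*) [NormedAddCommGroup X] [NormedSpace ℝ X] : Prop :=
  ∃ EE : Set (Submodule ℝ X), EE.Nonempty ∧ DirectedOn (· ≤ ·) EE ∧
    (∀ E ∈ EE, FiniteDimensional ℝ E ∧
      ∃ P : X →L[ℝ] X, ‖P‖ ≤ lam ∧ (∀ x, P x ∈ E) ∧ ∀ x ∈ E, P x = x) ∧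
    Dense (⋃ E ∈ EE, (E : Set X))

/-- hypotheses on the cotypes of `X` and of its dual -/
def CoCo (X : Type*) [NormedAddCommGroup X] [NormedSpace ℝ X] : Prop :=
  ∃ q r C D : ℝ, 2 ≤ q ∧ 2 ≤ r ∧ CotypeLE q C X ∧ CotypeLE r D (StrongDual ℝ X)

/-- Q1: the cotype-cotype conjecture -/
def Conj : Prop :=
  ∀ (X : Type) [NormedAddCommGroup X] [NormedSpace ℝ X] [CompleteSpace X],
    (∃ lam, BAPLE lam X) → CoCo X → ∃ K, KConvexLE K X

/-- Q1 restricted to spaces with a dense increasing family of uniformly complemented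
finite-dimensional subspaces -/
def ConjPi : Prop :=
  ∀ (X : Type) [NormedAddCommGroup X] [NormedSpace ℝ X] [CompleteSpace X],
    (∃ lam, PiLE lam X) → CoCo X → ∃ K, KConvexLE K X

/-- the quantitative form of Q1: `K(X)` is bounded in terms of `q, r`, the cotype constants and
the constant of the bounded approximation property only -/
def UniformForm : Prop :=
  ∀ q r C lam : ℝ, 2 ≤ q → 2 ≤ r → ∃ K : ℝ,
    ∀ (X : Type) [NormedAddCommGroup X] [NormedSpace ℝ X] [CompleteSpace X],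
      BAPLE lam X → CotypeLE q C X → CotypeLE r C (StrongDual ℝ X) → KConvexLE K X

/-- the uniform finite-dimensional form -/
def FinDimForm : Prop :=
  ∀ q r C : ℝ, 2 ≤ q → 2 ≤ r → ∃ K : ℝ,
    ∀ (F : Type) [NormedAddCommGroup F] [NormedSpace ℝ F] [FiniteDimensional ℝ F],
      CotypeLE q C F → CotypeLE r C (StrongDual ℝ F) → KConvexLE K F

/-- the uniform finite-dimensional operator form: operators of norm at most one from a space whose
dual has `C_r ≤ C` into a space with `C_q ≤ C` are uniformly K-convex -/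
def FinDimOpForm : Prop :=
  ∀ q r C : ℝ, 2 ≤ q → 2 ≤ r → ∃ K : ℝ,
    ∀ (G H : Type) [NormedAddCommGroup G] [NormedSpace ℝ G] [FiniteDimensional ℝ G]
      [NormedAddCommGroup H] [NormedSpace ℝ H] [FiniteDimensional ℝ H] (u : G →L[ℝ] H),
      ‖u‖ ≤ 1 → CotypeLE r C (StrongDual ℝ G) → CotypeLE q C H →
        ∀ (s : ℕ) (f : (Fin s → Bool) → G), l2n (fun e => u (Rad f e)) ≤ K * l2n f

end Vale.Agent.Lib.P111
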