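import Vale.Agent.Lib.P111.Transfer

/-! K-convexity passes from a dense directed family of subspaces to the whole space. -/

namespace Vale.Agent.Lib.P111

theorem continuous_l2n {X : Type*} [NormedAddCommGroup X] (s : ℕ) :
    Continuous (fun f : (Fin s → Bool) → X => l2n f) := by
  unfold l2n avg
  fun_prop

theorem continuous_Rad {X : Type*} [NormedAddCommGroup X] [NormedSpace ℝ X] (s : ℕ) :
    Continuous (fun f : (Fin s → Bool) → X => Rad f) := by
  unfold Rad rsum
  fun_prop

theorem exists_common_of_directed {X : Type*} [NormedAddCommGroup X] [NormedSpace ℝ X]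
    (EE : Set (Submodule ℝ X)) (hne : EE.Nonempty) (hdir : DirectedOn (· ≤ ·) EE)
    {ι : Type*} (t : Finset ι) (f : ι → X) (hf : ∀ e ∈ t, f e ∈ ⋃ E ∈ EE, (E : Set X)) :
    ∃ E ∈ EE, ∀ e ∈ t, f e ∈ E := by
  classical
  induction t using Finset.induction_on with
  | empty =>
    obtain ⟨E, hE⟩ := hne
    exact ⟨E, hE, by simp⟩
  | insert a t ha ih =>
    obtain ⟨E, hE, hEt⟩ := ih (fun e he => hf e (Finset.mem_insert_of_mem he))
    have h1 := hf a (Finset.mem_insert_self a t)
    simp only [Set.mem_iUnion, SetLike.mem_coe, exists_prop] at h1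
    obtain ⟨F, hF, haF⟩ := h1
    obtain ⟨G, hG, hEG, hFG⟩ := hdir E hE F hF
    refine ⟨G, hG, fun e he => ?_⟩
    rcases Finset.mem_insert.mp he with rfl | he
    · exact hFG haF
    · exact hEG (hEt e he)

theorem kconvex_of_dense {X : Type*} [NormedAddCommGroup X] [NormedSpace ℝ X]
    (EE : Set (Submodule ℝ X)) (hne : EE.Nonempty) (hdir : DirectedOn (· ≤ ·) EE)
    (hd : Dense (⋃ E ∈ EE, (E : Set X))) {K : ℝ} (hK : ∀ E ∈ EE, KConvexLE K E) :
    KConvexLE K X := by
  intro s
  have hclosed : IsClosed {f : (Fin s → Bool) → X | l2n (Rad f) ≤ K * l2n f} := by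
    apply isClosed_le
    · exact (continuous_l2n s).comp (continuous_Rad s)
    · exact continuous_const.mul (continuous_l2n s)
  have hdense : Dense (Set.pi Set.univ
      (fun _ : Fin s → Bool => (⋃ E ∈ EE, (E : Set X)))) :=
    dense_pi Set.univ (fun _ _ => hd)
  have hsub : Set.pi Set.univ (fun _ : Fin s → Bool => (⋃ E ∈ EE, (E : Set X))) ⊆
      {f : (Fin s → Bool) → X | l2n (Rad f) ≤ K * l2n f} := by
    intro f hf
    obtain ⟨E, hE, hfE⟩ := exists_common_of_directed EE hne hdir Finset.univ f
      (fun e _ => hf e (Set.mem_univ e))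
    let g : (Fin s → Bool) → E := fun e => ⟨f e, hfE e (Finset.mem_univ e)⟩
    have hg : f = fun e => E.subtypeₗᵢ (g e) := by
      funext e
      rfl
    have hg' : f = fun e => E.subtype (g e) := by
      funext e
      rfl
    have h1 : l2n f = l2n g := by
      rw [hg]
      exact l2n_comp E.subtypeₗᵢ g
    have h2 : l2n (Rad f) = l2n (Rad g) := by
      rw [hg', Rad_comp E.subtype g]
      exact l2n_comp E.subtypeₗᵢ (Rad g)
    show l2n (Rad f) ≤ K * l2n f
    rw [h1, h2]
    exact hK E hE s g
  intro f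
  have : f ∈ closure (Set.pi Set.univ (fun _ : Fin s → Bool => (⋃ E ∈ EE, (E : Set X)))) :=
    hdense f
  exact (closure_minimal hsub hclosed) this

end Vale.Agent.Lib.P111
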