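import Vale.Agent.Lib.P111.Defs

namespace Vale.Agent.Lib.P111

open scoped ENNReal

/-- restriction of a functional on the `l_2`-sum to the `n`-th summand, as a linear map -/
noncomputable def restr (F : ℕ → Type*) [∀ n, NormedAddCommGroup (F n)] [∀ n, NormedSpace ℝ (F n)]
    (n : ℕ) : StrongDual ℝ (lp F 2) →ₗ[ℝ] StrongDual ℝ (F n) where
  toFun φ := φ.comp (lp.singleContinuousLinearMap ℝ F 2 n)
  map_add' _ _ := rfl
  map_smul' _ _ := rfl

theorem restr_apply {F : ℕ → Type*} [∀ n, NormedAddCommGroup (F n)] [∀ n, NormedSpace ℝ (F n)]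
    (n : ℕ) (φ : StrongDual ℝ (lp F 2)) (x : F n) :
    restr F n φ x = φ (lp.single 2 n x) := rfl

/-- almost norming vectors of a functional -/
theorem exists_almost_norming {G : Type*} [NormedAddCommGroup G] [NormedSpace ℝ G]
    (ψ : StrongDual ℝ G) {δ : ℝ} (hδ : 0 < δ) : ∃ x : G, ‖x‖ ≤ 1 ∧ ‖ψ‖ - δ ≤ ψ x := by
  obtain ⟨x, hx1, hx2⟩ := ψ.exists_lt_apply_of_lt_opNorm (r := ‖ψ‖ - δ) (by linarith)
  rcases le_total 0 (ψ x) with h | h
  · refine ⟨x, hx1.le, ?_⟩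
    rw [Real.norm_eq_abs, abs_of_nonneg h] at hx2
    exact hx2.le
  · refine ⟨-x, by rw [norm_neg]; exact hx1.le, ?_⟩
    rw [Real.norm_eq_abs, abs_of_nonpos h] at hx2
    rw [map_neg]
    exact hx2.le

theorem toReal_two' : (2 : ℝ≥0∞).toReal = 2 := by simp

theorem norm_sq_sum_single {F : ℕ → Type*} [∀ n, NormedAddCommGroup (F n)]
    [∀ n, NormedSpace ℝ (F n)] (f : ∀ n, F n) (s : Finset ℕ) :
    ‖∑ n ∈ s, lp.single (E := F) 2 n (f n)‖ ^ 2 = ∑ n ∈ s, ‖f n‖ ^ 2 := by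
  have h := lp.norm_sum_single (p := 2) (E := F) (by simp) f s
  simp only [toReal_two', Real.rpow_two] at h
  exact h

theorem sum_sq_le_norm_sq {F : ℕ → Type*} [∀ n, NormedAddCommGroup (F n)]
    [∀ n, NormedSpace ℝ (F n)] (y : lp F 2) (s : Finset ℕ) :
    ∑ n ∈ s, ‖y n‖ ^ 2 ≤ ‖y‖ ^ 2 := by
  have h := lp.sum_rpow_le_norm_rpow (p := 2) (E := F) (by simp) y s
  simp only [toReal_two', Real.rpow_two] at h
  exact h

/-- lower estimate: all finite sums are at most `‖φ‖ ^ 2` -/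
theorem sum_restr_sq_le {F : ℕ → Type*} [∀ n, NormedAddCommGroup (F n)]
    [∀ n, NormedSpace ℝ (F n)] (φ : StrongDual ℝ (lp F 2)) (s : Finset ℕ) :
    ∑ n ∈ s, ‖restr F n φ‖ ^ 2 ≤ ‖φ‖ ^ 2 := by
  set c : ℕ → ℝ := fun n => ‖restr F n φ‖ with hc
  have hc0 : ∀ n, 0 ≤ c n := fun n => norm_nonneg _
  set A : ℝ := ∑ n ∈ s, c n ^ 2 with hA
  have hA0 : 0 ≤ A := Finset.sum_nonneg fun n _ => sq_nonneg _
  set B : ℝ := ∑ n ∈ s, c n with hB
  have hB0 : 0 ≤ B := Finset.sum_nonneg fun n _ => hc0 n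
  -- key inequality with an error term
  have key : ∀ δ : ℝ, 0 < δ → A - δ * B ≤ ‖φ‖ * Real.sqrt A := by
    intro δ hδ
    choose x hx1 hx2 using fun n => exists_almost_norming (restr F n φ) hδ
    set y : lp F 2 := ∑ n ∈ s, lp.single 2 n (c n • x n) with hy
    have hφy : φ y = ∑ n ∈ s, c n * restr F n φ (x n) := by
      rw [hy, map_sum]
      apply Finset.sum_congr rfl
      intro n _
      rw [lp.single_smul, map_smul, restr_apply, smul_eq_mul]
    have h1 : A - δ * B ≤ φ y := by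
      rw [hφy, hA, hB, Finset.mul_sum, ← Finset.sum_sub_distrib]
      apply Finset.sum_le_sum
      intro n _
      have := mul_le_mul_of_nonneg_left (hx2 n) (hc0 n)
      nlinarith [this]
    have h2 : ‖y‖ ^ 2 ≤ A := by
      rw [hy, norm_sq_sum_single, hA]
      apply Finset.sum_le_sum
      intro n _
      rw [norm_smul, Real.norm_eq_abs, abs_of_nonneg (hc0 n), mul_pow]
      have : ‖x n‖ ^ 2 ≤ 1 := by
        have := hx1 n
        have h0 := norm_nonneg (x n)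
        nlinarith
      nlinarith [sq_nonneg (c n)]
    have h3 : ‖y‖ ≤ Real.sqrt A := Real.le_sqrt_of_sq_le h2
    calc A - δ * B ≤ φ y := h1
      _ ≤ ‖φ y‖ := Real.le_norm_self _
      _ ≤ ‖φ‖ * ‖y‖ := φ.le_opNorm y
      _ ≤ ‖φ‖ * Real.sqrt A := mul_le_mul_of_nonneg_left h3 (norm_nonneg _)
  have key2 : A ≤ ‖φ‖ * Real.sqrt A := by
    apply le_of_forall_pos_le_add
    intro ε hε
    have := key (ε / (B + 1)) (by positivity)
    have h4 : ε / (B + 1) * B ≤ ε := by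
      rw [div_mul_eq_mul_div, div_le_iff₀ (by positivity)]
      nlinarith
    linarith
  rcases eq_or_lt_of_le hA0 with h0 | hpos
  · rw [← h0]
    positivity
  · have hs : 0 < Real.sqrt A := Real.sqrt_pos.2 hpos
    have h5 : Real.sqrt A * Real.sqrt A ≤ ‖φ‖ * Real.sqrt A := by
      rw [Real.mul_self_sqrt hA0]
      exact key2
    have h6 : Real.sqrt A ≤ ‖φ‖ := le_of_mul_le_mul_right h5 hs
    calc A = Real.sqrt A ^ 2 := (Real.sq_sqrt hA0).symm
      _ ≤ ‖φ‖ ^ 2 := by gcongr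

theorem summable_restr_sq {F : ℕ → Type*} [∀ n, NormedAddCommGroup (F n)]
    [∀ n, NormedSpace ℝ (F n)] (φ : StrongDual ℝ (lp F 2)) :
    Summable fun n => ‖restr F n φ‖ ^ 2 :=
  summable_of_sum_le (fun _ => sq_nonneg _) (sum_restr_sq_le φ)

/-- upper estimate -/
theorem norm_le_sqrt_tsum {F : ℕ → Type*} [∀ n, NormedAddCommGroup (F n)]
    [∀ n, NormedSpace ℝ (F n)] (φ : StrongDual ℝ (lp F 2)) :
    ‖φ‖ ≤ Real.sqrt (∑' n, ‖restr F n φ‖ ^ 2) := by
  set S : ℝ := ∑' n, ‖restr F n φ‖ ^ 2 with hS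
  apply ContinuousLinearMap.opNorm_le_bound _ (Real.sqrt_nonneg _)
  intro y
  have hsum : HasSum (fun n => φ (lp.single 2 n (y n))) (φ y) :=
    (lp.hasSum_single (by simp) y).mapL φ
  have hlim : Filter.Tendsto (fun s : Finset ℕ => ‖∑ n ∈ s, φ (lp.single 2 n (y n))‖)
      Filter.atTop (nhds ‖φ y‖) := (continuous_norm.tendsto _).comp hsum
  apply le_of_tendsto hlim
  filter_upwards with s
  calc ‖∑ n ∈ s, φ (lp.single 2 n (y n))‖ ≤ ∑ n ∈ s, ‖φ (lp.single 2 n (y n))‖ :=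
        norm_sum_le _ _
    _ ≤ ∑ n ∈ s, ‖restr F n φ‖ * ‖y n‖ := by
        apply Finset.sum_le_sum
        intro n _
        rw [← restr_apply]
        exact (restr F n φ).le_opNorm _
    _ ≤ Real.sqrt (∑ n ∈ s, ‖restr F n φ‖ ^ 2) * Real.sqrt (∑ n ∈ s, ‖y n‖ ^ 2) :=
        Real.sum_mul_le_sqrt_mul_sqrt _ _ _
    _ ≤ Real.sqrt S * ‖y‖ := by
        apply mul_le_mul
        · apply Real.sqrt_le_sqrt
          exact (summable_restr_sq φ).sum_le_tsum s (fun _ _ => sq_nonneg _)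
        · apply Real.sqrt_le_iff.2
          exact ⟨norm_nonneg _, sum_sq_le_norm_sq y s⟩
        · exact Real.sqrt_nonneg _
        · exact Real.sqrt_nonneg _

/-- the dual of an `l_2`-sum is the `l_2`-sum of the duals (norm identity) -/
theorem dual_hasSum {F : ℕ → Type*} [∀ n, NormedAddCommGroup (F n)] [∀ n, NormedSpace ℝ (F n)]
    (φ : StrongDual ℝ (lp F 2)) :
    HasSum (fun n => ‖restr F n φ‖ ^ 2) (‖φ‖ ^ 2) := by
  have hs := summable_restr_sq φ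
  have h1 : ∑' n, ‖restr F n φ‖ ^ 2 ≤ ‖φ‖ ^ 2 := hs.tsum_le_of_sum_le (sum_restr_sq_le φ)
  have h0 : 0 ≤ ∑' n, ‖restr F n φ‖ ^ 2 := tsum_nonneg fun _ => sq_nonneg _
  have h2 : ‖φ‖ ^ 2 ≤ ∑' n, ‖restr F n φ‖ ^ 2 := by
    calc ‖φ‖ ^ 2 ≤ Real.sqrt (∑' n, ‖restr F n φ‖ ^ 2) ^ 2 := by
          gcongr
          exact norm_le_sqrt_tsum φ
      _ = ∑' n, ‖restr F n φ‖ ^ 2 := Real.sq_sqrt h0
  rw [← le_antisymm h1 h2]
  exact hs.hasSum

end Vale.Agent.Lib.P111
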