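import Vale.Agent.Lib.P111.Dense

namespace Vale.Agent.Lib.P111

/-- the uniform finite-dimensional form gives the conjecture for spaces with a dense directed
family of uniformly complemented finite-dimensional subspaces -/
theorem conjPi_of_finDim' (h : FinDimForm) : ConjPi := by
  intro X _ _ _ hpi hco
  obtain ⟨lam, EE, hne, hdir, hEE, hdense⟩ := hpi
  obtain ⟨q, r, C, D, hq, hr, hC, hD⟩ := hco
  have hD' : CotypeLE r (max D 0) (StrongDual ℝ X) := hD.mono (le_max_left _ _)
  obtain ⟨K, hK⟩ := h q r (max C (lam * max D 0)) hq hr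
  refine ⟨K, kconvex_of_dense EE hne hdir hdense ?_⟩
  intro E hE
  obtain ⟨hfd, P, hP, hPE, hPid⟩ := hEE E hE
  have := hfd
  apply hK E
  · exact (CotypeLE.of_isometry E.subtypeₗᵢ hC).mono (le_max_left _ _)
  · exact (cotype_dual_of_proj E P hP hPE hPid (by linarith) (le_max_right _ _) hD').mono
      (le_max_right _ _)

end Vale.Agent.Lib.P111
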