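import Vale.Agent.Lib.P111.Defs

namespace Vale.Agent.Lib.P111

variable {X : Type*} [NormedAddCommGroup X] [NormedSpace ℝ X]

/-- a finite-rank operator `T` factors as `X → X ⧸ N → range T` (`N` the kernel of `T`), the
second map having norm at most `‖T‖`; both spaces are finite-dimensional -/
theorem factor_finite_rank (T : X →L[ℝ] X)
    (hT : FiniteDimensional ℝ (LinearMap.range (T : X →ₗ[ℝ] X))) :
    ∃ (N : Submodule ℝ X) (_ : IsClosed (N : Set X)), FiniteDimensional ℝ (X ⧸ N) ∧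
      ∃ u : (X ⧸ N) →L[ℝ] (LinearMap.range (T : X →ₗ[ℝ] X)), ‖u‖ ≤ ‖T‖ ∧
        ∀ x : X, ((u (N.mkQ x) : LinearMap.range (T : X →ₗ[ℝ] X)) : X) = T x := by
  classical
  have hcl : IsClosed ((LinearMap.ker (T : X →ₗ[ℝ] X) : Submodule ℝ X) : Set X) := T.isClosed_ker
  refine ⟨LinearMap.ker (T : X →ₗ[ℝ] X), hcl, ?_, ?_⟩
  · exact LinearEquiv.finiteDimensional (LinearMap.quotKerEquivRange (T : X →ₗ[ℝ] X)).symm
  · have hb : ∀ z : X ⧸ LinearMap.ker (T : X →ₗ[ℝ] X),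
        ‖(LinearMap.quotKerEquivRange (T : X →ₗ[ℝ] X)).toLinearMap z‖ ≤ ‖T‖ * ‖z‖ := by
      intro z
      apply le_of_forall_pos_le_add
      intro ε hε
      have hδ : 0 < ε / (‖T‖ + 1) := div_pos hε (by positivity)
      obtain ⟨x, hx, hlt⟩ := Submodule.Quotient.norm_mk_lt z hδ
      have h1 : ‖(LinearMap.quotKerEquivRange (T : X →ₗ[ℝ] X)).toLinearMap z‖ = ‖T x‖ := by
        rw [← hx]
        rfl
      rw [h1]
      have h2 : ‖T x‖ ≤ ‖T‖ * ‖x‖ := T.le_opNorm x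
      have h3 : ‖T‖ * ‖x‖ ≤ ‖T‖ * (‖z‖ + ε / (‖T‖ + 1)) :=
        mul_le_mul_of_nonneg_left hlt.le (norm_nonneg _)
      have h4 : ‖T‖ * (ε / (‖T‖ + 1)) ≤ ε := by
        have h5 : ‖T‖ / (‖T‖ + 1) ≤ 1 := by
          rw [div_le_one (by positivity)]
          linarith
        calc ‖T‖ * (ε / (‖T‖ + 1)) = ε * (‖T‖ / (‖T‖ + 1)) := by ring
          _ ≤ ε * 1 := mul_le_mul_of_nonneg_left h5 hε.le
          _ = ε := mul_one _
      calc ‖T x‖ ≤ ‖T‖ * (‖z‖ + ε / (‖T‖ + 1)) := h2.trans h3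
        _ = ‖T‖ * ‖z‖ + ‖T‖ * (ε / (‖T‖ + 1)) := by ring
        _ ≤ ‖T‖ * ‖z‖ + ε := by linarith
    refine ⟨(LinearMap.quotKerEquivRange (T : X →ₗ[ℝ] X)).toLinearMap.mkContinuous ‖T‖ hb,
      LinearMap.mkContinuous_norm_le _ (norm_nonneg _) _, ?_⟩
    intro x
    rfl

end Vale.Agent.Lib.P111
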