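import Vale.Agent.Lib.P111.Defs

namespace Vale.Agent.Lib.P111

theorem bap_of_pi2 {X : Type*} [NormedAddCommGroup X] [NormedSpace ℝ X] {lam : ℝ}
    (h : PiLE lam X) : BAPLE lam X := by
  classical
  obtain ⟨EE, hne, hdir, hE, hdense⟩ := h
  intro M hM d hd
  -- `lam` is nonnegative
  have hlam : 0 ≤ lam := by
    obtain ⟨E, hEE⟩ := hne
    obtain ⟨-, P, hP, -, -⟩ := hE E hEE
    exact (norm_nonneg P).trans hP
  set eta : ℝ := d / (2 * (lam + 2)) with heta
  have hpos : 0 < 2 * (lam + 2) := by positivity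
  have heta0 : 0 < eta := div_pos hd hpos
  obtain ⟨t, -, htfin, hcover⟩ := hM.finite_cover_balls heta0
  -- approximants
  have hz : ∀ c : X, ∃ z ∈ (⋃ E ∈ EE, (E : Set X)), dist c z < eta :=
    fun c => hdense.exists_dist_lt c heta0
  choose z hzmem hzdist using hz
  -- a single subspace containing all `z c`, `c ∈ t`
  have hsub : ((htfin.toFinset.image z : Finset X) : Set X) ⊆ ⋃ E ∈ EE, (E : Set X) := by
    intro x hx
    simp only [Finset.coe_image, Set.mem_image] at hx
    obtain ⟨c, -, rfl⟩ := hx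
    exact hzmem c
  have hdir' : DirectedOn (fun (i j : Submodule ℝ X) => (i : Set X) ⊆ (j : Set X)) EE := by
    intro a ha b hb
    obtain ⟨c, hc, hac, hbc⟩ := hdir a ha b hb
    exact ⟨c, hc, hac, hbc⟩
  obtain ⟨E, hEE, hEsub⟩ :=
    DirectedOn.exists_mem_subset_of_finset_subset_biUnion (f := fun E : Submodule ℝ X => (E : Set X))
      hne hdir' hsub
  obtain ⟨hfd, P, hP, hPE, hPfix⟩ := hE E hEE
  refine ⟨P, ?_, hP, ?_⟩
  · have hle : LinearMap.range (P : X →ₗ[ℝ] X) ≤ E := by
      rintro _ ⟨x, rfl⟩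
      exact hPE x
    exact Submodule.finiteDimensional_of_le hle
  · intro y hy
    have hy' := hcover hy
    simp only [Set.mem_iUnion, Metric.mem_ball, exists_prop] at hy'
    obtain ⟨c, hct, hyc⟩ := hy'
    have hzE : z c ∈ E := by
      apply hEsub
      simp only [Finset.coe_image, Set.mem_image]
      exact ⟨c, by simpa using hct, rfl⟩
    have hfix : P (z c) = z c := hPfix _ hzE
    have hyz : ‖y - z c‖ < 2 * eta := by
      have h1 : dist y (z c) ≤ dist y c + dist c (z c) := dist_triangle _ _ _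
      have h2 := hzdist c
      rw [← dist_eq_norm]
      linarith
    have hdecomp : P y - y = P (y - z c) - (y - z c) := by
      rw [map_sub, hfix]; abel
    have hb1 : ‖P (y - z c)‖ ≤ lam * ‖y - z c‖ :=
      (P.le_opNorm _).trans (mul_le_mul_of_nonneg_right hP (norm_nonneg _))
    have hb2 : ‖P y - y‖ ≤ (lam + 1) * ‖y - z c‖ := by
      rw [hdecomp]
      calc ‖P (y - z c) - (y - z c)‖ ≤ ‖P (y - z c)‖ + ‖y - z c‖ := norm_sub_le _ _
        _ ≤ lam * ‖y - z c‖ + ‖y - z c‖ := by linarith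
        _ = (lam + 1) * ‖y - z c‖ := by ring
    have hb3 : (lam + 1) * ‖y - z c‖ ≤ (lam + 1) * (2 * eta) :=
      mul_le_mul_of_nonneg_left hyz.le (by linarith)
    have hb4 : (lam + 1) * (2 * eta) < d := by
      have : (lam + 2) * (2 * eta) = d := by
        rw [heta]; field_simp
      nlinarith
    linarith

end Vale.Agent.Lib.P111
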