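import Vale.Agent.Lib.P111.Defs

namespace Vale.Agent.Lib.P111

open scoped ENNReal

section
variable {F : ℕ → Type*} [∀ n, NormedAddCommGroup (F n)] [∀ n, NormedSpace ℝ (F n)]

/-- truncation to the first `N` coordinates -/
private noncomputable def trunc (N : ℕ) : lp F 2 →L[ℝ] lp F 2 :=
  ∑ n ∈ Finset.range N, (lp.singleContinuousLinearMap ℝ F 2 n).comp (lp.evalCLM ℝ F 2 n)

private theorem trunc_apply (N : ℕ) (y : lp F 2) :
    trunc N y = ∑ n ∈ Finset.range N, lp.single 2 n (y n) := by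
  simp only [trunc, sum_apply, ContinuousLinearMap.comp_apply,
    lp.singleContinuousLinearMap_apply]
  rfl

private theorem trunc_coord (N : ℕ) (y : lp F 2) (m : ℕ) :
    (trunc N y) m = if m < N then y m else 0 := by
  rw [trunc_apply, lp.coeFn_sum, Finset.sum_apply]
  simp only [lp.coeFn_single, Finset.sum_pi_single, Finset.mem_range]

private theorem trunc_trunc {N M : ℕ} (h : N ≤ M) (y : lp F 2) :
    trunc M (trunc N y) = trunc N y := by
  apply lp.ext
  funext m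
  rw [trunc_coord, trunc_coord]
  by_cases h1 : m < N
  · have h2 : m < M := lt_of_lt_of_le h1 h
    simp [h1, h2]
  · simp [h1]

private theorem two_toReal : (2 : ℝ≥0∞).toReal = 2 := by simp

private theorem norm_trunc_le (N : ℕ) : ‖(trunc N : lp F 2 →L[ℝ] lp F 2)‖ ≤ 1 := by
  refine ContinuousLinearMap.opNorm_le_bound _ zero_le_one fun y => ?_
  rw [one_mul, trunc_apply]
  have hp : 0 < (2 : ℝ≥0∞).toReal := by rw [two_toReal]; norm_num
  have h1 := lp.norm_sum_single hp (fun n => y n) (Finset.range N)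
  have h2 := lp.sum_rpow_le_norm_rpow hp y (Finset.range N)
  rw [← h1] at h2
  exact (Real.rpow_le_rpow_iff (norm_nonneg _) (norm_nonneg _) hp).1 h2

private theorem range_mono {N M : ℕ} (h : N ≤ M) :
    LinearMap.range ((trunc N : lp F 2 →L[ℝ] lp F 2) : lp F 2 →ₗ[ℝ] lp F 2) ≤
      LinearMap.range ((trunc M : lp F 2 →L[ℝ] lp F 2) : lp F 2 →ₗ[ℝ] lp F 2) := by
  rintro _ ⟨y, rfl⟩
  exact ⟨trunc N y, trunc_trunc h y⟩

private theorem finite_range [∀ n, FiniteDimensional ℝ (F n)] (N : ℕ) :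
    FiniteDimensional ℝ
      (LinearMap.range ((trunc N : lp F 2 →L[ℝ] lp F 2) : lp F 2 →ₗ[ℝ] lp F 2)) := by
  have hle : LinearMap.range ((trunc N : lp F 2 →L[ℝ] lp F 2) : lp F 2 →ₗ[ℝ] lp F 2) ≤
      (Finset.range N).sup fun n => LinearMap.range (lp.lsingle (𝕜 := ℝ) (E := F) 2 n) := by
    rintro _ ⟨y, rfl⟩
    show trunc N y ∈ _
    rw [trunc_apply]
    refine Submodule.sum_mem _ fun n hn => ?_
    have h1 : LinearMap.range (lp.lsingle (𝕜 := ℝ) (E := F) 2 n) ≤
        (Finset.range N).sup fun n => LinearMap.range (lp.lsingle (𝕜 := ℝ) (E := F) 2 n) :=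
      Finset.le_sup (f := fun n => LinearMap.range (lp.lsingle (𝕜 := ℝ) (E := F) 2 n)) hn
    exact h1 ⟨y n, rfl⟩
  have hfin : FiniteDimensional ℝ
      ((Finset.range N).sup fun n => LinearMap.range (lp.lsingle (𝕜 := ℝ) (E := F) 2 n) :
        Submodule ℝ (lp F 2)) :=
    Submodule.finiteDimensional_finset_sup _ _
  exact Submodule.finiteDimensional_of_le hle

end

/-- the `l_2`-sum of finite-dimensional spaces has a dense increasing sequence of
1-complemented finite-dimensional subspaces (ranges of the truncations) -/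
theorem pi_lp {F : ℕ → Type*} [∀ n, NormedAddCommGroup (F n)] [∀ n, NormedSpace ℝ (F n)]
    [∀ n, FiniteDimensional ℝ (F n)] : PiLE 1 (lp F 2) := by
  refine ⟨Set.range fun N : ℕ =>
    LinearMap.range ((trunc N : lp F 2 →L[ℝ] lp F 2) : lp F 2 →ₗ[ℝ] lp F 2),
    ⟨_, ⟨0, rfl⟩⟩, ?_, ?_, ?_⟩
  · rintro _ ⟨N, rfl⟩ _ ⟨M, rfl⟩
    exact ⟨_, ⟨max N M, rfl⟩, range_mono (le_max_left _ _), range_mono (le_max_right _ _)⟩
  · rintro _ ⟨N, rfl⟩
    refine ⟨finite_range N, trunc N, norm_trunc_le N, fun x => ⟨x, rfl⟩, ?_⟩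
    rintro _ ⟨y, rfl⟩
    exact trunc_trunc le_rfl y
  · intro y
    have h1 : Filter.Tendsto (fun N : ℕ => ∑ n ∈ Finset.range N, lp.single 2 n (y n))
        Filter.atTop (nhds y) :=
      (lp.hasSum_single (by norm_num : (2 : ℝ≥0∞) ≠ ⊤) y).tendsto_sum_nat
    refine mem_closure_of_tendsto h1 (Filter.Eventually.of_forall fun N => ?_)
    rw [← trunc_apply]
    refine Set.mem_iUnion₂.2 ⟨_, ⟨N, rfl⟩, ?_⟩
    exact ⟨y, rfl⟩

end Vale.Agent.Lib.P111
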