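import Vale.Agent.Lib.P111.Coords
import Vale.Agent.Lib.P111.DualSum
import Vale.Agent.Lib.P111.Trunc
import Vale.Agent.Lib.P111.PiBap2
import Vale.Agent.Lib.P111.FDtoPi

namespace Vale.Agent.Lib.P111

open scoped ENNReal

theorem conjPi_of_conj (h : Conj) : ConjPi := by
  intro X _ _ _ hpi hco
  obtain ⟨lam, hl⟩ := hpi
  exact h X ⟨lam, bap_of_pi2 hl⟩ hco

/-- the isometric embedding of a summand into the `l_2`-sum -/
noncomputable def emb (F : ℕ → Type*) [∀ n, NormedAddCommGroup (F n)] [∀ n, NormedSpace ℝ (F n)]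
    (n : ℕ) : F n →ₗᵢ[ℝ] lp F 2 where
  toLinearMap := lp.lsingle 2 n
  norm_map' x := lp.norm_single (by norm_num) n x

theorem lp_hasSum {F : ℕ → Type*} [∀ n, NormedAddCommGroup (F n)] [∀ n, NormedSpace ℝ (F n)]
    (y : lp F 2) : HasSum (fun n => ‖(lp.evalₗ (𝕜 := ℝ) (E := F) (p := 2) n) y‖ ^ 2) (‖y‖ ^ 2) := by
  have h := lp.hasSum_norm (p := 2) (by norm_num) y
  simpa using h

/-- the `l_2`-sum of a sequence of finite-dimensional spaces with uniformly bounded cotype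
constants (of the spaces and of their duals) -/
theorem sum_space (F : ℕ → Type) [∀ n, NormedAddCommGroup (F n)] [∀ n, NormedSpace ℝ (F n)]
    [∀ n, FiniteDimensional ℝ (F n)] {q r C : ℝ} (hq : 2 ≤ q) (hr : 2 ≤ r)
    (h1 : ∀ n, CotypeLE q C (F n)) (h2 : ∀ n, CotypeLE r C (StrongDual ℝ (F n)))
    (h : ConjPi) : ∃ K, ∀ n, KConvexLE K (F n) := by
  have : ∀ n, CompleteSpace (F n) := fun n => FiniteDimensional.complete ℝ (F n)
  have hco : CoCo (lp F 2) := by
    refine ⟨q, r, max C 0, max C 0, hq, hr, ?_, ?_⟩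
    · exact cotype_of_coords (fun n => lp.evalₗ (𝕜 := ℝ) (E := F) (p := 2) n) lp_hasSum hq
        (le_max_right _ _) (fun n => (h1 n).mono (le_max_left _ _))
    · exact cotype_of_coords (restr F) dual_hasSum hr
        (le_max_right _ _) (fun n => (h2 n).mono (le_max_left _ _))
  obtain ⟨K, hK⟩ := h (lp F 2) ⟨1, pi_lp⟩ hco
  exact ⟨K, fun n => hK.of_isometry (emb F n)⟩

theorem finDim_of_conjPi (h : ConjPi) : FinDimForm := by
  intro q r C hq hr
  by_contra hcon
  push Not at hcon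
  have hcon' : ∀ n : ℕ, ∃ (F : Type) (i1 : NormedAddCommGroup F) (i2 : NormedSpace ℝ F),
      FiniteDimensional ℝ F ∧ CotypeLE q C F ∧ CotypeLE r C (StrongDual ℝ F) ∧
        ¬ KConvexLE (n : ℝ) F := fun n => hcon n
  choose F i1 i2 i3 h1 h2 h3 using hcon'
  obtain ⟨K, hK⟩ := sum_space F hq hr h1 h2 h
  obtain ⟨n, hn⟩ := exists_nat_ge K
  exact h3 n ((hK n).mono hn)

end Vale.Agent.Lib.P111
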