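import Vale.Agent.Lib.P111.Defs

namespace Vale.Agent.Lib.P111

open Finset Filter Topology

/-- the `l_p` norm of a vector with nonnegative entries -/
private noncomputable def Np {s : ℕ} (p : ℝ) (x : Fin s → ℝ) : ℝ := (∑ i, x i ^ p) ^ (1 / p)

private theorem Np_nonneg {s : ℕ} (p : ℝ) (x : Fin s → ℝ) (hx : ∀ i, 0 ≤ x i) : 0 ≤ Np p x :=
  Real.rpow_nonneg (sum_nonneg fun i _ => Real.rpow_nonneg (hx i) _) _

private theorem Np_add_le {s : ℕ} {p : ℝ} (hp : 1 ≤ p) (x y : Fin s → ℝ) (hx : ∀ i, 0 ≤ x i)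
    (hy : ∀ i, 0 ≤ y i) : Np p (fun i => x i + y i) ≤ Np p x + Np p y :=
  Real.Lp_add_le_of_nonneg univ hp (fun i _ => hx i) (fun i _ => hy i)

private theorem Np_sum_le {s : ℕ} {p : ℝ} (hp : 1 ≤ p) (b : Fin s → ℕ → ℝ)
    (hb : ∀ i n, 0 ≤ b i n) (m : ℕ) :
    Np p (fun i => ∑ n ∈ range m, b i n) ≤ ∑ n ∈ range m, Np p (fun i => b i n) := by
  induction m with
  | zero =>
    have hp0 : p ≠ 0 := by linarith
    have h1p : p⁻¹ ≠ 0 := inv_ne_zero hp0
    simp [Np, Real.zero_rpow hp0, Real.zero_rpow h1p]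
  | succ m ih =>
    simp only [sum_range_succ]
    calc Np p (fun i => ∑ n ∈ range m, b i n + b i m)
        ≤ Np p (fun i => ∑ n ∈ range m, b i n) + Np p (fun i => b i m) :=
          Np_add_le hp _ _ (fun i => sum_nonneg fun n _ => hb i n) (fun i => hb i m)
      _ ≤ ∑ n ∈ range m, Np p (fun i => b i n) + Np p (fun i => b i m) := by linarith

private theorem Np_le_sum {s : ℕ} {p : ℝ} (hp : 1 ≤ p) (x : Fin s → ℝ) (hx : ∀ i, 0 ≤ x i) :
    Np p x ≤ ∑ i, x i := by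
  have hp0 : p ≠ 0 := by linarith
  have hppos : 0 < p := by linarith
  set T := ∑ i, x i with hT
  have hT0 : 0 ≤ T := sum_nonneg fun i _ => hx i
  have hle : ∀ i, x i ≤ T := fun i => single_le_sum (f := x) (fun j _ => hx j) (mem_univ i)
  have key : ∑ i, x i ^ p ≤ T ^ p := by
    rcases hT0.eq_or_lt with h0 | hpos
    · have hz : ∀ i, x i = 0 := fun i => le_antisymm (h0 ▸ hle i) (hx i)
      simp [hz, ← h0, Real.zero_rpow hp0]
    · have h1 : ∀ i, x i ^ p ≤ T ^ p * (x i / T) := by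
        intro i
        have hr0 : 0 ≤ x i / T := div_nonneg (hx i) hT0
        have hr1 : x i / T ≤ 1 := (div_le_one hpos).2 (hle i)
        have h2 : (x i / T) ^ p ≤ (x i / T) ^ (1 : ℝ) :=
          Real.rpow_le_rpow_of_exponent_ge' hr0 hr1 zero_le_one hp
        rw [Real.rpow_one] at h2
        have h3 : x i ^ p = T ^ p * (x i / T) ^ p := by
          rw [← Real.mul_rpow hT0 hr0]
          congr 1
          field_simp
        rw [h3]
        exact mul_le_mul_of_nonneg_left h2 (Real.rpow_nonneg hT0 _)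
      calc ∑ i, x i ^ p ≤ ∑ i, T ^ p * (x i / T) := sum_le_sum fun i _ => h1 i
        _ = T ^ p * ((∑ i, x i) / T) := by rw [← mul_sum, sum_div]
        _ = T ^ p := by rw [← hT, div_self hpos.ne', mul_one]
  calc Np p x ≤ (T ^ p) ^ (1 / p) :=
        Real.rpow_le_rpow (sum_nonneg fun i _ => Real.rpow_nonneg (hx i) _) key (by positivity)
    _ = T := by
        rw [← Real.rpow_mul hT0, mul_one_div, div_self hp0, Real.rpow_one]

private theorem conv {s : ℕ} {q : ℝ} (hq : 2 ≤ q) (a : Fin s → ℝ) (ha : ∀ i, 0 ≤ a i) :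
    ((∑ i, a i ^ q) ^ (1 / q)) ^ 2 = Np (q / 2) (fun i => a i ^ 2) := by
  have hq0 : q ≠ 0 := by linarith
  unfold Np
  have h1 : ∀ i, (a i ^ 2) ^ (q / 2) = a i ^ q := by
    intro i
    rw [← Real.rpow_natCast (a i) 2, ← Real.rpow_mul (ha i)]
    congr 1
    push_cast
    ring
  simp only [h1]
  have hS : 0 ≤ ∑ i, a i ^ q := sum_nonneg fun i _ => Real.rpow_nonneg (ha i) _
  rw [← Real.rpow_natCast _ 2, ← Real.rpow_mul hS]
  congr 1
  push_cast
  field_simp

/-- Minkowski inequality in `l_{q/2}^s` for a series of vectors with nonnegative entries. -/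
theorem mink {s : ℕ} {q : ℝ} (hq : 2 ≤ q) (a : Fin s → ℕ → ℝ) (ha : ∀ i n, 0 ≤ a i n)
    (A : Fin s → ℝ) (hA0 : ∀ i, 0 ≤ A i) (hA : ∀ i, HasSum (fun n => a i n ^ 2) (A i ^ 2)) :
    Summable (fun n => ((∑ i, a i n ^ q) ^ (1 / q)) ^ 2) ∧
      ((∑ i, A i ^ q) ^ (1 / q)) ^ 2 ≤ ∑' n, ((∑ i, a i n ^ q) ^ (1 / q)) ^ 2 := by
  have hp : 1 ≤ q / 2 := by linarith
  have hb : ∀ i n, 0 ≤ a i n ^ 2 := fun i n => sq_nonneg _
  have hc : ∀ n, ((∑ i, a i n ^ q) ^ (1 / q)) ^ 2 = Np (q / 2) (fun i => a i n ^ 2) :=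
    fun n => conv hq (fun i => a i n) (fun i => ha i n)
  simp only [hc]
  rw [conv hq A hA0]
  have hsum : Summable (fun n => Np (q / 2) (fun i => a i n ^ 2)) := by
    refine summable_of_sum_range_le (c := ∑ i, A i ^ 2)
      (fun n => Np_nonneg _ _ fun i => hb i n) fun m => ?_
    calc ∑ n ∈ range m, Np (q / 2) (fun i => a i n ^ 2)
        ≤ ∑ n ∈ range m, ∑ i, a i n ^ 2 :=
          sum_le_sum fun n _ => Np_le_sum hp _ fun i => hb i n
      _ = ∑ i, ∑ n ∈ range m, a i n ^ 2 := sum_comm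
      _ ≤ ∑ i, A i ^ 2 :=
          sum_le_sum fun i _ => sum_le_hasSum _ (fun n _ => hb i n) (hA i)
  refine ⟨hsum, ?_⟩
  have ht1 : Tendsto (fun m => Np (q / 2) (fun i => ∑ n ∈ range m, a i n ^ 2)) atTop
      (𝓝 (Np (q / 2) (fun i => A i ^ 2))) := by
    unfold Np
    refine Tendsto.rpow_const ?_ (Or.inr (by positivity))
    refine tendsto_finsetSum _ fun i _ => ?_
    exact Tendsto.rpow_const (hA i).tendsto_sum_nat (Or.inr (by positivity))
  have ht2 : Tendsto (fun m => ∑ n ∈ range m, Np (q / 2) (fun i => a i n ^ 2)) atTop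
      (𝓝 (∑' n, Np (q / 2) (fun i => a i n ^ 2))) := hsum.hasSum.tendsto_sum_nat
  exact le_of_tendsto_of_tendsto' ht1 ht2 fun m => Np_sum_le hp _ hb m

end Vale.Agent.Lib.P111
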