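import Vale.Agent.Lib.P111.Quot
import Vale.Agent.Lib.P111.Factor

namespace Vale.Agent.Lib.P111

/-- `avg x ≤ sqrt (avg x^2)` -/
theorem avg_le_sqrt_avg_sq {s : ℕ} (x : (Fin s → Bool) → ℝ) :
    avg s x ≤ Real.sqrt (avg s fun e => x e ^ 2) := by
  apply Real.le_sqrt_of_sq_le
  unfold avg
  have h := sq_sum_le_card_mul_sum_sq (s := (Finset.univ : Finset (Fin s → Bool))) (f := x)
  have hc : ((Finset.univ : Finset (Fin s → Bool)).card : ℝ) = 2 ^ s := by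
    simp
  rw [hc] at h
  have hp : (0 : ℝ) < 2 ^ s := by positivity
  rw [div_pow, div_le_div_iff₀ (by positivity) hp]
  calc (∑ e, x e) ^ 2 * 2 ^ s ≤ (2 ^ s * ∑ e, x e ^ 2) * 2 ^ s :=
        mul_le_mul_of_nonneg_right h hp.le
    _ = (∑ e, x e ^ 2) * (2 ^ s) ^ 2 := by ring

/-- a pointwise bound `‖a‖ ≤ c ‖b‖ + d` passes to the `L_2` norms -/
theorem l2n_le_mul_add {Z W : Type*} [NormedAddCommGroup Z] [NormedAddCommGroup W] {s : ℕ}
    (a : (Fin s → Bool) → Z) (b : (Fin s → Bool) → W) {c d : ℝ} (hc : 0 ≤ c) (hd : 0 ≤ d)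
    (hab : ∀ e, ‖a e‖ ≤ c * ‖b e‖ + d) : l2n a ≤ c * l2n b + d := by
  have hA := avg_le_sqrt_avg_sq (s := s) (fun e => ‖b e‖)
  have hl : l2n b = Real.sqrt (avg s fun e => ‖b e‖ ^ 2) := rfl
  rw [← hl] at hA
  have hb0 : 0 ≤ l2n b := Real.sqrt_nonneg _
  have hsq : l2n b ^ 2 = avg s fun e => ‖b e‖ ^ 2 := by
    rw [hl]
    apply Real.sq_sqrt
    unfold avg
    positivity
  have hp : (0 : ℝ) < 2 ^ s := by positivity
  have hcard : (∑ _e : Fin s → Bool, (1 : ℝ)) = 2 ^ s := by simp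
  unfold l2n
  apply Real.sqrt_le_iff.2
  refine ⟨by positivity, ?_⟩
  have h1 : (avg s fun e => ‖a e‖ ^ 2)
      ≤ c ^ 2 * (avg s fun e => ‖b e‖ ^ 2) + 2 * c * d * (avg s fun e => ‖b e‖) + d ^ 2 := by
    unfold avg
    have h2 : ∑ e, ‖a e‖ ^ 2 ≤ c ^ 2 * (∑ e, ‖b e‖ ^ 2) + 2 * c * d * (∑ e, ‖b e‖)
        + d ^ 2 * 2 ^ s := by
      rw [← hcard, Finset.mul_sum, Finset.mul_sum, Finset.mul_sum, ← Finset.sum_add_distrib,
        ← Finset.sum_add_distrib]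
      refine Finset.sum_le_sum fun e _ => ?_
      have h3 := pow_le_pow_left₀ (norm_nonneg (a e)) (hab e) 2
      calc ‖a e‖ ^ 2 ≤ (c * ‖b e‖ + d) ^ 2 := h3
        _ = c ^ 2 * ‖b e‖ ^ 2 + 2 * c * d * ‖b e‖ + d ^ 2 * 1 := by ring
    calc (∑ e, ‖a e‖ ^ 2) / 2 ^ s
        ≤ (c ^ 2 * (∑ e, ‖b e‖ ^ 2) + 2 * c * d * (∑ e, ‖b e‖) + d ^ 2 * 2 ^ s) / 2 ^ s :=
          div_le_div_of_nonneg_right h2 hp.le
      _ = c ^ 2 * ((∑ e, ‖b e‖ ^ 2) / 2 ^ s) + 2 * c * d * ((∑ e, ‖b e‖) / 2 ^ s) + d ^ 2 := by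
          field_simp
  have h4 : 2 * c * d * (avg s fun e => ‖b e‖) ≤ 2 * c * d * l2n b :=
    mul_le_mul_of_nonneg_left hA (by positivity)
  rw [← hsq] at h1
  change (avg s fun e => ‖a e‖ ^ 2) ≤ (c * l2n b + d) ^ 2
  nlinarith [h1, h4]

theorem conj_of_finDimOp (h : FinDimOpForm) : Conj := by
  intro X _ _ _ hbap hcoco
  obtain ⟨lam, hlam⟩ := hbap
  obtain ⟨q, r, C, D, hq, hr, hC, hD⟩ := hcoco
  obtain ⟨K, hK⟩ := h q r (max C D) hq hr
  refine ⟨max lam 1 * max K 0, ?_⟩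
  intro s f
  have hL1 : (1 : ℝ) ≤ max lam 1 := le_max_right _ _
  have hL0 : (0 : ℝ) < max lam 1 := lt_of_lt_of_le one_pos hL1
  apply le_of_forall_pos_le_add
  intro d hd
  obtain ⟨T, hTfin, hTn, hTa⟩ := hlam (Set.range (Rad f)) (Set.finite_range _).isCompact d hd
  obtain ⟨N, hNc, hNfin, u, hun, hu⟩ := factor_finite_rank T hTfin
  have := hNc
  have := hNfin
  have := hTfin
  set v : (X ⧸ N) →L[ℝ] (LinearMap.range (T : X →ₗ[ℝ] X)) := (max lam 1)⁻¹ • u with hv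
  have hvn : ‖v‖ ≤ 1 := by
    have h1 : ‖u‖ ≤ max lam 1 := (hun.trans hTn).trans (le_max_left _ _)
    refine ContinuousLinearMap.opNorm_le_bound v zero_le_one fun x => ?_
    have h2 : ‖v x‖ = (max lam 1)⁻¹ * ‖u x‖ := by
      rw [hv, smul_apply, norm_smul, norm_inv, Real.norm_of_nonneg hL0.le]
    rw [h2]
    calc (max lam 1)⁻¹ * ‖u x‖ ≤ (max lam 1)⁻¹ * (max lam 1 * ‖x‖) :=
          mul_le_mul_of_nonneg_left ((u.le_opNorm x).trans
            (mul_le_mul_of_nonneg_right h1 (norm_nonneg x))) (inv_nonneg.2 hL0.le)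
      _ = 1 * ‖x‖ := by rw [← mul_assoc, inv_mul_cancel₀ hL0.ne']
  have hmain := hK (X ⧸ N) (LinearMap.range (T : X →ₗ[ℝ] X)) v hvn
    (cotype_dual_quot N (hD.mono (le_max_right C D)))
    ((hC.mono (le_max_left C D)).of_isometry (Submodule.subtypeₗᵢ _)) s
    (fun e => (N.mkQ (f e) : X ⧸ N))
  have hRad : Rad (fun e => (N.mkQ (f e) : X ⧸ N)) = fun e => N.mkQ (Rad f e) :=
    Rad_comp N.mkQ f
  rw [hRad] at hmain
  have hpt : ∀ e, ‖Rad f e‖ ≤ max lam 1 * ‖v (N.mkQ (Rad f e))‖ + d := by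
    intro e
    have h1 : ‖T (Rad f e) - Rad f e‖ < d := hTa _ ⟨e, rfl⟩
    have h2 : ((v (N.mkQ (Rad f e)) : LinearMap.range (T : X →ₗ[ℝ] X)) : X)
        = (max lam 1)⁻¹ • T (Rad f e) := by
      rw [hv]
      simp only [smul_apply, Submodule.coe_smul, hu]
    have h3 : ‖v (N.mkQ (Rad f e))‖ = (max lam 1)⁻¹ * ‖T (Rad f e)‖ := by
      have h30 : ‖v (N.mkQ (Rad f e))‖
          = ‖((v (N.mkQ (Rad f e)) : LinearMap.range (T : X →ₗ[ℝ] X)) : X)‖ := rfl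
      rw [h30, h2, norm_smul, norm_inv, Real.norm_of_nonneg hL0.le]
    have h4 : max lam 1 * ‖v (N.mkQ (Rad f e))‖ = ‖T (Rad f e)‖ := by
      rw [h3, ← mul_assoc, mul_inv_cancel₀ hL0.ne', one_mul]
    rw [h4]
    have h5 : ‖Rad f e‖ ≤ ‖T (Rad f e)‖ + ‖T (Rad f e) - Rad f e‖ := by
      have := norm_sub_le (T (Rad f e)) (T (Rad f e) - Rad f e)
      simpa using this
    linarith
  have h6 := l2n_le_mul_add (Rad f) (fun e => v (N.mkQ (Rad f e))) hL0.le hd.le hpt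
  have h7 : l2n (fun e => (N.mkQ (f e) : X ⧸ N)) ≤ l2n f := l2n_mkQ_le N f
  have h8 : K * l2n (fun e => (N.mkQ (f e) : X ⧸ N)) ≤ max K 0 * l2n f :=
    calc K * l2n (fun e => (N.mkQ (f e) : X ⧸ N))
        ≤ max K 0 * l2n (fun e => (N.mkQ (f e) : X ⧸ N)) :=
          mul_le_mul_of_nonneg_right (le_max_left _ _) (l2n_nonneg _)
      _ ≤ max K 0 * l2n f := mul_le_mul_of_nonneg_left h7 (le_max_right _ _)
  calc l2n (Rad f) ≤ max lam 1 * l2n (fun e => v (N.mkQ (Rad f e))) + d := h6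
    _ ≤ max lam 1 * (max K 0 * l2n f) + d := by
        have := mul_le_mul_of_nonneg_left (hmain.trans h8) hL0.le
        linarith
    _ = max lam 1 * max K 0 * l2n f + d := by ring

theorem finDim_of_finDimOp (h : FinDimOpForm) : FinDimForm := by
  intro q r C hq hr
  obtain ⟨K, hK⟩ := h q r C hq hr
  refine ⟨K, ?_⟩
  intro F _ _ _ h1 h2 s f
  exact hK F F (ContinuousLinearMap.id ℝ F) ContinuousLinearMap.norm_id_le h2 h1 s f

end Vale.Agent.Lib.P111
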