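import Vale.Agent.Lib.P111.Defs

namespace Vale.Agent.Lib.P111

theorem bap_of_pi {X : Type*} [NormedAddCommGroup X] [NormedSpace ℝ X] {lam : ℝ}
    (h : PiLE lam X) : BAPLE lam X := by
  obtain ⟨EE, hne, hdir, hE, hdense⟩ := h
  intro M hM d hd
  have hlam : 0 ≤ lam := by
    obtain ⟨E, hEE⟩ := hne
    obtain ⟨-, P, hP, -⟩ := hE E hEE
    exact (norm_nonneg P).trans hP
  set eta : ℝ := d / (2 * (lam + 2)) with heta
  have heta0 : 0 < eta := by positivity
  obtain ⟨t, -, htfin, hcov⟩ := hM.finite_cover_balls heta0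
  -- one subspace of the family is close to all centres
  have key : ∃ E ∈ EE, ∀ c ∈ t, ∃ z ∈ E, dist c z < eta := by
    refine Set.Finite.induction_on (motive := fun s _ => ∃ E ∈ EE, ∀ c ∈ s, ∃ z ∈ E, dist c z < eta)
      t htfin ?_ ?_
    · obtain ⟨E, hEE⟩ := hne
      exact ⟨E, hEE, fun c hc => absurd hc (Set.notMem_empty c)⟩
    · intro a s _ _ ih
      obtain ⟨E₁, hE₁, h₁⟩ := ih
      obtain ⟨z, hz, hza⟩ := hdense.exists_dist_lt a heta0
      obtain ⟨E₂, hz2⟩ := Set.mem_iUnion.1 hz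
      obtain ⟨hE₂, hz2⟩ := Set.mem_iUnion.1 hz2
      obtain ⟨E, hEE, h1E, h2E⟩ := hdir E₁ hE₁ E₂ hE₂
      refine ⟨E, hEE, fun c hc => ?_⟩
      rcases Set.mem_insert_iff.1 hc with rfl | hc
      · exact ⟨z, h2E hz2, hza⟩
      · obtain ⟨z', hz', hd'⟩ := h₁ c hc
        exact ⟨z', h1E hz', hd'⟩
  obtain ⟨E, hEE, hclose⟩ := key
  obtain ⟨hfd, P, hP, hPE, hPid⟩ := hE E hEE
  refine ⟨P, ?_, hP, ?_⟩
  · have hle : LinearMap.range (P : X →ₗ[ℝ] X) ≤ E := by
      rintro y ⟨x, rfl⟩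
      exact hPE x
    exact Submodule.finiteDimensional_of_le hle
  · intro y hy
    obtain ⟨c, hc⟩ := Set.mem_iUnion.1 (hcov hy)
    obtain ⟨hct, hyc⟩ := Set.mem_iUnion.1 hc
    obtain ⟨z, hzE, hcz⟩ := hclose c hct
    have hyz : ‖y - z‖ < 2 * eta := by
      rw [← dist_eq_norm]
      have := dist_triangle y c z
      have h1 : dist y c < eta := hyc
      linarith
    have hsplit : P y - y = P (y - z) - (y - z) := by
      rw [map_sub, hPid z hzE]
      abel
    have h2 : ‖P (y - z)‖ ≤ lam * ‖y - z‖ :=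
      (P.le_opNorm _).trans (mul_le_mul_of_nonneg_right hP (norm_nonneg _))
    have h3 : ‖P y - y‖ ≤ (lam + 1) * ‖y - z‖ := by
      rw [hsplit]
      have := norm_sub_le (P (y - z)) (y - z)
      linarith
    have h4 : (lam + 1) * ‖y - z‖ ≤ (lam + 1) * (2 * eta) :=
      mul_le_mul_of_nonneg_left hyz.le (by linarith)
    have h5 : (lam + 1) * (2 * eta) < d := by
      have h6 : (lam + 1) * (2 * eta) = d * ((lam + 1) / (lam + 2)) := by
        rw [heta]
        field_simp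
      rw [h6]
      have h7 : (lam + 1) / (lam + 2) < 1 := by
        rw [div_lt_one (by linarith)]
        linarith
      calc d * ((lam + 1) / (lam + 2)) < d * 1 := mul_lt_mul_of_pos_left h7 hd
        _ = d := mul_one d
    linarith

end Vale.Agent.Lib.P111
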