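import Vale.Agent.Lib.P111.Transfer

namespace Vale.Agent.Lib.P111

variable {X : Type*} [NormedAddCommGroup X] [NormedSpace ℝ X]

private theorem norm_comp_mkQL (N : Submodule ℝ X) [IsClosed (N : Set X)]
    (ψ : StrongDual ℝ (X ⧸ N)) : ‖ψ.comp N.mkQL‖ = ‖ψ‖ := by
  apply le_antisymm
  · refine ContinuousLinearMap.opNorm_le_bound _ ψ.opNorm_nonneg (fun x => ?_)
    have h1 : ‖(ψ.comp N.mkQL) x‖ ≤ ‖ψ‖ * ‖(Submodule.Quotient.mk x : X ⧸ N)‖ :=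
      ψ.le_opNorm _
    exact h1.trans (mul_le_mul_of_nonneg_left (Submodule.Quotient.norm_mk_le N x) ψ.opNorm_nonneg)
  · refine ContinuousLinearMap.opNorm_le_bound _ (norm_nonneg _) (fun z => ?_)
    refine le_of_forall_pos_le_add (fun δ hδ => ?_)
    have hpos : 0 < ‖ψ.comp N.mkQL‖ + 1 := by positivity
    obtain ⟨x, hx, hxn⟩ := Submodule.Quotient.norm_mk_lt z (div_pos hδ hpos)
    have h1 : ψ z = (ψ.comp N.mkQL) x := by
      rw [← hx]; rfl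
    rw [h1]
    have h2 : ‖(ψ.comp N.mkQL) x‖ ≤ ‖ψ.comp N.mkQL‖ * ‖x‖ := (ψ.comp N.mkQL).le_opNorm x
    have h3 : ‖ψ.comp N.mkQL‖ * ‖x‖ ≤
        ‖ψ.comp N.mkQL‖ * (‖z‖ + δ / (‖ψ.comp N.mkQL‖ + 1)) :=
      mul_le_mul_of_nonneg_left hxn.le (norm_nonneg _)
    have h4 : ‖ψ.comp N.mkQL‖ * (δ / (‖ψ.comp N.mkQL‖ + 1)) ≤ δ := by
      rw [mul_div_assoc', div_le_iff₀ hpos]
      nlinarith [norm_nonneg (ψ.comp N.mkQL)]
    calc ‖(ψ.comp N.mkQL) x‖ ≤ ‖ψ.comp N.mkQL‖ * (‖z‖ + δ / (‖ψ.comp N.mkQL‖ + 1)) :=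
          h2.trans h3
      _ = ‖ψ.comp N.mkQL‖ * ‖z‖ + ‖ψ.comp N.mkQL‖ * (δ / (‖ψ.comp N.mkQL‖ + 1)) := by ring
      _ ≤ ‖ψ.comp N.mkQL‖ * ‖z‖ + δ := by linarith

/-- the dual of a quotient `X ⧸ N` embeds isometrically into the dual of `X`, so its cotype
constants are not larger -/
theorem cotype_dual_quot (N : Submodule ℝ X) [IsClosed (N : Set X)] {r D : ℝ}
    (h : CotypeLE r D (StrongDual ℝ X)) : CotypeLE r D (StrongDual ℝ (X ⧸ N)) := by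
  let J : StrongDual ℝ (X ⧸ N) →ₗᵢ[ℝ] StrongDual ℝ X :=
    { toFun := fun ψ => ψ.comp N.mkQL
      map_add' := fun a b => ContinuousLinearMap.add_comp a b N.mkQL
      map_smul' := fun c a => ContinuousLinearMap.smul_comp c a N.mkQL
      norm_map' := fun ψ => norm_comp_mkQL N ψ }
  exact CotypeLE.of_isometry J h

/-- the quotient map does not increase the `L_2` norm -/
theorem l2n_mkQ_le (N : Submodule ℝ X) [IsClosed (N : Set X)] {s : ℕ} (f : (Fin s → Bool) → X) :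
    l2n (fun e => (N.mkQ (f e) : X ⧸ N)) ≤ l2n f := by
  have h := l2n_le_mul (fun e => (N.mkQ (f e) : X ⧸ N)) f (lam := 1) zero_le_one
    (fun e => by
      rw [one_mul]
      exact Submodule.Quotient.norm_mk_le N (f e))
  rwa [one_mul] at h

end Vale.Agent.Lib.P111
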