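import Vale.Agent.Lib.P111.Defs

namespace Vale.Agent.Lib.P111

variable {X Y : Type*} [NormedAddCommGroup X] [NormedSpace ℝ X]
  [NormedAddCommGroup Y] [NormedSpace ℝ Y]

theorem l2n_nonneg {s : ℕ} (f : (Fin s → Bool) → Y) : 0 ≤ l2n f := Real.sqrt_nonneg _

theorem CotypeLE.mono {q C D : ℝ} (h : CotypeLE q C Y) (hCD : C ≤ D) : CotypeLE q D Y :=
  fun s y => (h s y).trans (mul_le_mul_of_nonneg_right hCD (l2n_nonneg _))

theorem KConvexLE.mono {K K' : ℝ} (h : KConvexLE K Y) (hK : K ≤ K') : KConvexLE K' Y :=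
  fun s f => (h s f).trans (mul_le_mul_of_nonneg_right hK (l2n_nonneg _))

theorem l2n_comp (i : X →ₗᵢ[ℝ] Y) {s : ℕ} (f : (Fin s → Bool) → X) :
    l2n (fun e => i (f e)) = l2n f := by
  unfold l2n
  simp only [LinearIsometry.norm_map]

theorem rsum_comp (i : X →ₗ[ℝ] Y) {s : ℕ} (y : Fin s → X) :
    rsum (fun k => i (y k)) = fun e => i (rsum y e) := by
  funext e
  simp only [rsum, map_sum, map_smul]

theorem Rad_comp (i : X →ₗ[ℝ] Y) {s : ℕ} (f : (Fin s → Bool) → X) :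
    Rad (fun e => i (f e)) = fun e => i (Rad f e) := by
  unfold Rad
  rw [← rsum_comp]
  congr 1
  funext k
  simp only [map_sum, map_smul]

theorem KConvexLE.of_isometry (i : X →ₗᵢ[ℝ] Y) {K : ℝ} (h : KConvexLE K Y) : KConvexLE K X := by
  intro s f
  have h1 := h s (fun e => i (f e))
  have h2 : Rad (fun e => i (f e)) = fun e => i (Rad f e) := Rad_comp i.toLinearMap f
  rw [h2, l2n_comp, l2n_comp] at h1
  exact h1

theorem CotypeLE.of_isometry (i : X →ₗᵢ[ℝ] Y) {q C : ℝ} (h : CotypeLE q C Y) :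
    CotypeLE q C X := by
  intro s y
  have h1 := h s (fun k => i (y k))
  have h2 : rsum (fun k => i (y k)) = fun e => i (rsum y e) := rsum_comp i.toLinearMap y
  rw [h2, l2n_comp] at h1
  simpa only [LinearIsometry.norm_map] using h1

/-- monotonicity of `l2n` under a pointwise bound with a constant -/
theorem l2n_le_mul {Z W : Type*} [NormedAddCommGroup Z] [NormedAddCommGroup W] {s : ℕ}
    (f : (Fin s → Bool) → Z) (g : (Fin s → Bool) → W) {lam : ℝ} (hlam : 0 ≤ lam)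
    (hfg : ∀ e, ‖f e‖ ≤ lam * ‖g e‖) : l2n f ≤ lam * l2n g := by
  unfold l2n avg
  have h1 : (∑ e, ‖f e‖ ^ 2) / 2 ^ s ≤ lam ^ 2 * ((∑ e, ‖g e‖ ^ 2) / 2 ^ s) := by
    rw [← mul_div_assoc, Finset.mul_sum]
    apply div_le_div_of_nonneg_right _ (by positivity)
    apply Finset.sum_le_sum
    intro e _
    have := pow_le_pow_left₀ (norm_nonneg (f e)) (hfg e) 2
    rwa [mul_pow] at this
  calc Real.sqrt ((∑ e, ‖f e‖ ^ 2) / 2 ^ s)
      ≤ Real.sqrt (lam ^ 2 * ((∑ e, ‖g e‖ ^ 2) / 2 ^ s)) := Real.sqrt_le_sqrt h1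
    _ = lam * Real.sqrt ((∑ e, ‖g e‖ ^ 2) / 2 ^ s) := by
        rw [Real.sqrt_mul (sq_nonneg lam), Real.sqrt_sq hlam]

/-- the dual of a `lam`-complemented subspace `E` embeds into the dual of `X` via `ψ ↦ ψ ∘ P` -/
theorem cotype_dual_of_proj (E : Submodule ℝ X) (P : X →L[ℝ] X) {lam : ℝ} (hP : ‖P‖ ≤ lam)
    (hPE : ∀ x, P x ∈ E) (hPid : ∀ x ∈ E, P x = x) {r C : ℝ} (hr : 0 < r) (hC : 0 ≤ C)
    (h : CotypeLE r C (StrongDual ℝ X)) : CotypeLE r (lam * C) (StrongDual ℝ E) := by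
  have hlam : 0 ≤ lam := (norm_nonneg P).trans hP
  let P' : X →L[ℝ] E := P.codRestrict E hPE
  have hP'x : ∀ x : E, P' (x : X) = x := by
    intro x
    apply Subtype.ext
    exact hPid x x.2
  have hP'n : ‖P'‖ ≤ lam := by
    apply ContinuousLinearMap.opNorm_le_bound _ hlam
    intro x
    have : ‖P' x‖ = ‖P x‖ := rfl
    rw [this]
    exact (P.le_opNorm x).trans (mul_le_mul_of_nonneg_right hP (norm_nonneg x))
  have hle : ∀ ψ : StrongDual ℝ E, ‖ψ‖ ≤ ‖ψ.comp P'‖ := by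
    intro ψ
    apply ContinuousLinearMap.opNorm_le_bound _ (norm_nonneg _)
    intro x
    have h1 : ψ x = (ψ.comp P') (x : X) := by
      rw [ContinuousLinearMap.comp_apply, hP'x]
    rw [h1]
    exact (ψ.comp P').le_opNorm (x : X)
  have hge : ∀ ψ : StrongDual ℝ E, ‖ψ.comp P'‖ ≤ lam * ‖ψ‖ := by
    intro ψ
    calc ‖ψ.comp P'‖ ≤ ‖ψ‖ * ‖P'‖ := ContinuousLinearMap.opNorm_comp_le _ _
      _ ≤ ‖ψ‖ * lam := mul_le_mul_of_nonneg_left hP'n (ContinuousLinearMap.opNorm_nonneg ψ)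
      _ = lam * ‖ψ‖ := mul_comm _ _
  intro s ψ
  have h1 := h s (fun k => (ψ k).comp P')
  have h2 : rsum (fun k => (ψ k).comp P') = fun e => (rsum ψ e).comp P' := by
    funext e
    ext x
    simp [rsum]
  have h3 : l2n (rsum (fun k => (ψ k).comp P')) ≤ lam * l2n (rsum ψ) := by
    rw [h2]
    exact l2n_le_mul _ _ hlam (fun e => hge _)
  have h4 : (∑ k, ‖ψ k‖ ^ r) ^ (1 / r) ≤ (∑ k, ‖(ψ k).comp P'‖ ^ r) ^ (1 / r) := by
    apply Real.rpow_le_rpow
    · exact Finset.sum_nonneg (fun k _ => Real.rpow_nonneg (ContinuousLinearMap.opNorm_nonneg (ψ k)) _)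
    · apply Finset.sum_le_sum
      intro k _
      exact Real.rpow_le_rpow (ContinuousLinearMap.opNorm_nonneg (ψ k)) (hle _) hr.le
    · positivity
  calc (∑ k, ‖ψ k‖ ^ r) ^ (1 / r) ≤ (∑ k, ‖(ψ k).comp P'‖ ^ r) ^ (1 / r) := h4
    _ ≤ C * l2n (rsum (fun k => (ψ k).comp P')) := h1
    _ ≤ C * (lam * l2n (rsum ψ)) := mul_le_mul_of_nonneg_left h3 hC
    _ = lam * C * l2n (rsum ψ) := by ring

end Vale.Agent.Lib.P111
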