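import Vale.Agent.Lib.P111.Main
import Vale.Agent.Lib.P111.BapSum

namespace Vale.Agent.Lib.P111

open scoped ENNReal

/-- the `l_2`-sum of a sequence of Banach spaces with uniformly bounded constants -/
theorem sum_space_bap (F : ℕ → Type) [∀ n, NormedAddCommGroup (F n)] [∀ n, NormedSpace ℝ (F n)]
    [∀ n, CompleteSpace (F n)] {q r C lam : ℝ} (hq : 2 ≤ q) (hr : 2 ≤ r)
    (h0 : ∀ n, BAPLE lam (F n))
    (h1 : ∀ n, CotypeLE q C (F n)) (h2 : ∀ n, CotypeLE r C (StrongDual ℝ (F n)))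
    (h : Conj) : ∃ K, ∀ n, KConvexLE K (F n) := by
  have hco : CoCo (lp F 2) := by
    refine ⟨q, r, max C 0, max C 0, hq, hr, ?_, ?_⟩
    · exact cotype_of_coords (fun n => lp.evalₗ (𝕜 := ℝ) (E := F) (p := 2) n) lp_hasSum hq
        (le_max_right _ _) (fun n => (h1 n).mono (le_max_left _ _))
    · exact cotype_of_coords (restr F) dual_hasSum hr
        (le_max_right _ _) (fun n => (h2 n).mono (le_max_left _ _))
  obtain ⟨K, hK⟩ := h (lp F 2) ⟨lam, bap_lp h0⟩ hco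
  exact ⟨K, fun n => hK.of_isometry (emb F n)⟩

theorem uniform_of_conj (h : Conj) : UniformForm := by
  intro q r C lam hq hr
  by_contra hcon
  push Not at hcon
  have hcon' : ∀ n : ℕ, ∃ (F : Type) (i1 : NormedAddCommGroup F) (i2 : NormedSpace ℝ F),
      CompleteSpace F ∧ BAPLE lam F ∧ CotypeLE q C F ∧ CotypeLE r C (StrongDual ℝ F) ∧
        ¬ KConvexLE (n : ℝ) F := fun n => hcon n
  choose F i1 i2 i3 h0 h1 h2 h3 using hcon'
  obtain ⟨K, hK⟩ := sum_space_bap F hq hr h0 h1 h2 h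
  obtain ⟨n, hn⟩ := exists_nat_ge K
  exact h3 n ((hK n).mono hn)

theorem conj_of_uniform (h : UniformForm) : Conj := by
  intro X _ _ _ hb hco
  obtain ⟨lam, hl⟩ := hb
  obtain ⟨q, r, C, D, hq, hr, hC, hD⟩ := hco
  obtain ⟨K, hK⟩ := h q r (max C D) lam hq hr
  exact ⟨K, hK X hl (hC.mono (le_max_left _ _)) (hD.mono (le_max_right _ _))⟩

end Vale.Agent.Lib.P111
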